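import Mathlib

namespace Vale.Agent.P007

open MeasureTheory

/-- The group SL_n(ℝ). -/
abbrev G (n : ℕ) : Type := Matrix.SpecialLinearGroup (Fin n) ℝ

/-- The subgroup SL_n(ℤ) of SL_n(ℝ). -/
def Gam (n : ℕ) : Subgroup (G n) :=
  (Matrix.SpecialLinearGroup.map (n := Fin n) (Int.castRingHom ℝ)).range

/-- The space of covolume-one lattices, SL_n(ℝ)/SL_n(ℤ), with the quotient topology and the
left action of SL_n(ℝ); the class of g is the lattice spanned by the columns of g. -/
abbrev X (n : ℕ) : Type := G n ⧸ Gam n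

/-- The lattice spanned over ℤ by the columns of g. -/
def lat {n : ℕ} (g : G n) : Set (Fin n → ℝ) :=
  {v | ∃ z : Fin n → ℤ, v = (g : Matrix (Fin n) (Fin n) ℝ).mulVec (fun j => (z j : ℝ))}

/-- The union of the orbits in the packet of the order O for the ordering σ of the real
embeddings: all covolume-one lattices c σ(I) w a, with I a proper invertible fractional O-ideal,
c > 0, w a diagonal sign matrix and a = diag(exp u) with ∑ u = 0. -/
def packet {n : ℕ} {K : Type} [Field K] (σ : Fin n → (K →+* ℝ)) (O : Subring K) : Set (X n) :=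
  {x | ∃ g : G n, x = (g : X n) ∧
    ∃ I : FractionalIdeal (nonZeroDivisors O) K, (∃ J, I * J = 1) ∧
      (∀ α : K, (∀ y ∈ I, α * y ∈ I) ↔ α ∈ O) ∧
      ∃ (c : ℝ) (w u : Fin n → ℝ), 0 < c ∧ (∀ j, w j = 1 ∨ w j = -1) ∧ ∑ j, u j = 0 ∧
        lat g = {v | ∃ α ∈ I, v = fun j => c * σ j α * w j * Real.exp (u j)}}

/-- A test function: continuous, compactly supported, with positive integral for every
SL_n(ℝ)-invariant probability measure. -/
def Test {n : ℕ} [MeasurableSpace (X n)] (f : X n → ℝ) : Prop :=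
  Continuous f ∧ HasCompactSupport f ∧
    ∀ m : Measure (X n), IsProbabilityMeasure m → SMulInvariantMeasure (G n) (X n) m →
      0 < ∫ x, f x ∂m

end Vale.Agent.P007
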