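import Vale.Agent.P007.Defs

namespace Vale.Agent.P007

open MeasureTheory Matrix Topology

variable {n : ℕ}

instance : LocallyCompactSpace (G n) :=
  haveI : LocallyCompactSpace (Matrix (Fin n) (Fin n) ℝ) :=
    inferInstanceAs (LocallyCompactSpace (Fin n → Fin n → ℝ))
  Matrix.SpecialLinearGroup.isClosedEmbedding_val.locallyCompactSpace

instance : SecondCountableTopology (G n) :=
  haveI : SecondCountableTopology (Matrix (Fin n) (Fin n) ℝ) :=
    inferInstanceAs (SecondCountableTopology (Fin n → Fin n → ℝ))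
  Matrix.SpecialLinearGroup.isClosedEmbedding_val.isEmbedding.secondCountableTopology

instance : IsClosed ((Gam n : Subgroup (G n)) : Set (G n)) := by
  have h : IsClosedEmbedding (Int.castRingHom ℝ) := Int.isClosedEmbedding_coe_real
  exact (h.specialLinearGroup_map (n := Fin n)).isClosed_range

/-- integral matrices -/
def Int' (M : Matrix (Fin n) (Fin n) ℝ) : Prop := ∀ i j, M i j ∈ Set.range (Int.cast : ℤ → ℝ)

lemma Int'.mul {M N : Matrix (Fin n) (Fin n) ℝ} (hM : Int' M) (hN : Int' N) : Int' (M * N) := by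
  intro i j
  choose a ha using hM
  choose b hb using hN
  refine ⟨∑ k, a i k * b k j, ?_⟩
  simp [Matrix.mul_apply, ha, hb]

lemma int_of_mem {γ : G n} (h : γ ∈ Gam n) : Int' (γ : Matrix (Fin n) (Fin n) ℝ) := by
  obtain ⟨z, rfl⟩ := h
  intro i j
  exact ⟨z i j, by simp⟩

/-- conjugated diagonal -/
noncomputable def cj (d : Fin n → ℝ) (g : G n) : Matrix (Fin n) (Fin n) ℝ :=
  ((g⁻¹ : G n) : Matrix (Fin n) (Fin n) ℝ) * diagonal d * (g : Matrix (Fin n) (Fin n) ℝ)

lemma cj_mul (d : Fin n → ℝ) (g γ : G n) (hγ : γ ∈ Gam n) (h : Int' (cj d g)) :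
    Int' (cj d (g * γ)) := by
  have : cj d (g * γ) = ((γ⁻¹ : G n) : Matrix (Fin n) (Fin n) ℝ) * cj d g * γ := by
    simp only [cj, _root_.mul_inv_rev, Matrix.SpecialLinearGroup.coe_mul, Matrix.mul_assoc]
  rw [this]
  exact ((int_of_mem (inv_mem hγ)).mul h).mul (int_of_mem hγ)

lemma isClosed_cj (d : Fin n → ℝ) : IsClosed {g : G n | Int' (cj d g)} := by
  have hc : Continuous (cj d) := by
    have h1 : Continuous (fun g : G n => (g : Matrix (Fin n) (Fin n) ℝ)) := continuous_subtype_val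
    exact ((h1.comp continuous_inv).mul continuous_const).mul h1
  have : {g : G n | Int' (cj d g)} =
      ⋂ i, ⋂ j, (fun g => cj d g i j) ⁻¹' Set.range (Int.cast : ℤ → ℝ) := by
    ext g; simp [Int']
  rw [this]
  refine isClosed_iInter fun i => isClosed_iInter fun j => ?_
  exact Int.isClosedEmbedding_coe_real.isClosed_range.preimage (hc.matrix_elem i j)

lemma exists_good (S : Set (Fin n → ℝ)) (hS : S.Countable) (hn : ∀ d ∈ S, ¬ ∀ j k, d j = d k) :
    ∃ g : G n, ∀ d ∈ S, ¬ Int' (cj d g) := by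
  rcases n with _ | n
  · exact ⟨1, fun d hd _ => hn d hd fun j => j.elim0⟩
  have hB : (⋃ d ∈ S, ⋃ j : Fin (n + 1), Set.range fun z : ℤ => (z : ℝ) / (d 0 - d j)).Countable :=
    hS.biUnion fun d _ => Set.countable_iUnion fun j => Set.countable_range _
  obtain ⟨t, ht⟩ : ∃ t : ℝ,
      t ∉ ⋃ d ∈ S, ⋃ j : Fin (n + 1), Set.range fun z : ℤ => (z : ℝ) / (d 0 - d j) := by
    by_contra h
    push Not at h
    exact Set.not_countable_univ (hB.mono fun t _ => h t)
  let M : Matrix (Fin (n + 1)) (Fin (n + 1)) ℝ :=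
    Matrix.of fun i j => if i = j then 1 else if i = 0 then t else 0
  have hM : M.det = 1 := by
    rw [Matrix.det_of_isUpperTriangular]
    · simp [M]
    · intro i j hij
      have h1 : i ≠ j := fun h => by simp [h] at hij
      have h2 : i ≠ 0 := fun h => by simp [h] at hij
      simp [M, h1, h2]
  refine ⟨⟨M, hM⟩, fun d hd hI => ?_⟩
  obtain ⟨j, hj⟩ : ∃ j, d 0 ≠ d j := by
    by_contra h
    push Not at h
    exact hn d hd fun j k => by rw [← h j, ← h k]
  have hj0 : j ≠ 0 := fun h => hj (by rw [h])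
  have e : M * cj d ⟨M, hM⟩ = diagonal d * M := by
    have : M * (((⟨M, hM⟩ : G (n + 1))⁻¹ : G (n + 1)) : Matrix _ _ ℝ) = 1 := by
      have key : ∀ g : G (n + 1), (g : Matrix (Fin (n + 1)) (Fin (n + 1)) ℝ) *
          ((g⁻¹ : G (n + 1)) : Matrix (Fin (n + 1)) (Fin (n + 1)) ℝ) = 1 :=
        fun g => by rw [← Matrix.SpecialLinearGroup.coe_mul, mul_inv_cancel]; rfl
      exact key ⟨M, hM⟩
    simp only [cj, ← Matrix.mul_assoc, this, Matrix.one_mul]
  set C := cj d ⟨M, hM⟩ with hC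
  have e1 : ∀ i, i ≠ 0 → C i j = if i = j then d j else 0 := by
    intro i hi
    have := congrFun (congrFun e i) j
    simp only [Matrix.mul_apply, M, Matrix.of_apply, hi, if_false, diagonal_apply] at this
    simp only [ite_mul, one_mul, zero_mul, Finset.sum_ite_eq, Finset.mem_univ, if_true] at this
    rw [this]
    by_cases h : i = j
    · simp [h]
    · simp [h, hi]
  have e0 := congrFun (congrFun e 0) j
  rw [diagonal_mul, Matrix.mul_apply, Fin.sum_univ_succ] at e0
  have e2 : ∑ i : Fin n, M 0 i.succ * C i.succ j = t * d j := by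
    obtain ⟨k, rfl⟩ := Fin.exists_succ_eq.2 hj0
    have : ∀ i : Fin n, M 0 i.succ * C i.succ k.succ = if i = k then t * d k.succ else 0 := by
      intro i
      rw [e1 _ (Fin.succ_ne_zero i)]
      have : M 0 i.succ = t := by simp [M, (Fin.succ_ne_zero i).symm]
      rw [this]
      by_cases h : i = k <;> simp [h]
    simp [this]
  rw [e2] at e0
  have h3 : M 0 0 = 1 := by simp [M]
  have h4 : M 0 j = t := by simp [M, hj0.symm]
  rw [h3, h4] at e0
  obtain ⟨z, hz⟩ := hI 0 j
  apply ht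
  simp only [Set.mem_iUnion]
  refine ⟨d, hd, j, z, ?_⟩
  have : d 0 - d j ≠ 0 := sub_ne_zero.2 hj
  show (z : ℝ) / (d 0 - d j) = t
  rw [div_eq_iff this, hz]
  linarith

lemma inv_pos_open [MeasurableSpace (X n)] [BorelSpace (X n)] (m : Measure (X n))
    [IsProbabilityMeasure m] [SMulInvariantMeasure (G n) (X n) m] {V : Set (X n)}
    (hV : IsOpen V) (hne : V.Nonempty) : m V ≠ 0 := by
  intro h0
  obtain ⟨x0, hx0⟩ := hne
  obtain ⟨T, hT, hU⟩ := TopologicalSpace.isOpen_iUnion_countable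
    (fun g : G n => (fun x => g • x) ⁻¹' V) (fun g => hV.preimage (continuous_const_smul g))
  have h1 : (⋃ g : G n, (fun x => g • x) ⁻¹' V) = Set.univ := by
    refine Set.eq_univ_of_forall fun x => ?_
    obtain ⟨g, hg⟩ := MulAction.exists_smul_eq (G n) x x0
    exact Set.mem_iUnion.2 ⟨g, by simpa [hg] using hx0⟩
  have h2 : m (⋃ g ∈ T, (fun x => g • x) ⁻¹' V) = 0 := by
    rw [measure_biUnion_null_iff hT]
    intro g _
    rw [SMulInvariantMeasure.measure_preimage_smul g hV.measurableSet, h0]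
  rw [hU, h1] at h2
  simp at h2

theorem test_exists [MeasurableSpace (X n)] [BorelSpace (X n)] (S : Set (Fin n → ℝ))
    (hS : S.Finite) (hn : ∀ d ∈ S, ¬ ∀ j k, d j = d k) :
    ∃ f : X n → ℝ, Test f ∧ ∀ g : G n, (∃ d ∈ S, Int' (cj d g)) → f g = 0 := by
  let U : Set (G n) := {g | ∀ d ∈ S, ¬ Int' (cj d g)}
  have hU : IsOpen U := by
    have : U = ⋂ d ∈ S, {g : G n | Int' (cj d g)}ᶜ := by ext g; simp [U]
    rw [this]
    exact hS.isOpen_biInter fun d _ => (isClosed_cj d).isOpen_compl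
  obtain ⟨g0, hg0⟩ := exists_good S hS.countable hn
  have hV : IsOpen ((QuotientGroup.mk : G n → X n) '' U) := QuotientGroup.isOpenMap_coe U hU
  obtain ⟨f, f1, fc, fV, f01⟩ := exists_continuousMap_one_of_isCompact_subset_isOpen
    (isCompact_singleton (x := (g0 : X n))) hV (by
      rintro _ rfl; exact ⟨g0, hg0, rfl⟩)
  refine ⟨f, ⟨f.continuous, fc, fun m _ _ => ?_⟩, fun g ⟨d, hd, hI⟩ => ?_⟩
  · have hi : Integrable f m := f.continuous.integrable_of_hasCompactSupport fc
    rw [integral_pos_iff_support_of_nonneg (fun x => (f01 x).1) hi, pos_iff_ne_zero]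
    refine inv_pos_open m f.continuous.isOpen_support ⟨g0, ?_⟩
    simp [f1 (Set.mem_singleton _)]
  · by_contra h
    obtain ⟨g', hg', e⟩ := fV (subset_tsupport _ (Function.mem_support.2 h))
    have hγ : g⁻¹ * g' ∈ Gam n := QuotientGroup.eq.1 e.symm
    have := cj_mul d g _ hγ hI
    rw [mul_inv_cancel_left] at this
    exact hg' d hd this

theorem int_of_packet {K : Type} [Field K] (σ : Fin n → (K →+* ℝ)) (O : Subring K) {η : K}
    (hη : η ∈ O) {x : X n} (hx : x ∈ packet σ O) :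
    ∃ g : G n, x = g ∧ Int' (cj (fun j => σ j η) g) := by
  obtain ⟨g, rfl, I, -, hI, c, w, u, -, -, -, hl⟩ := hx
  refine ⟨g, rfl, fun i j => ?_⟩
  have h1 : (g : Matrix (Fin n) (Fin n) ℝ).mulVec (fun k => ((Pi.single j 1 : Fin n → ℤ) k : ℝ))
      ∈ lat g := ⟨_, rfl⟩
  rw [hl] at h1
  obtain ⟨α, hα, e⟩ := h1
  have h2 : (fun j => c * σ j (η * α) * w j * Real.exp (u j)) ∈ lat g := by
    rw [hl]; exact ⟨η * α, (hI η).2 hη α hα, rfl⟩
  obtain ⟨z, hz⟩ := h2
  refine ⟨z i, ?_⟩
  have h3 : (diagonal fun j => σ j η).mulVec ((g : Matrix (Fin n) (Fin n) ℝ).mulVec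
      (fun k => ((Pi.single j 1 : Fin n → ℤ) k : ℝ))) =
      (g : Matrix (Fin n) (Fin n) ℝ).mulVec (fun j => (z j : ℝ)) := by
    rw [e, ← hz]
    ext k
    simp only [mulVec_diagonal, map_mul]
    ring
  have h4 : (cj (fun j => σ j η) g).mulVec (fun k => ((Pi.single j 1 : Fin n → ℤ) k : ℝ)) =
      fun j => (z j : ℝ) := by
    have : ((g⁻¹ : G n) : Matrix (Fin n) (Fin n) ℝ) * (g : Matrix (Fin n) (Fin n) ℝ) = 1 := by
      rw [← Matrix.SpecialLinearGroup.coe_mul, inv_mul_cancel]; rfl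
    rw [cj, ← mulVec_mulVec, ← mulVec_mulVec, h3, mulVec_mulVec, this, one_mulVec]
  have h5 := congrFun h4 i
  have h6 : (fun k => ((Pi.single j 1 : Fin n → ℤ) k : ℝ)) = Pi.single j (1 : ℝ) := by
    ext k; by_cases h : k = j <;> simp [h]
  rw [h6, mulVec_single_one] at h5
  simpa using h5.symm

end Vale.Agent.P007
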