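import Mathlib

namespace Vale.Agent.P007

open NumberField IntermediateField Module

/-- the ambient field -/
abbrev Qb : Type := AlgebraicClosure ℚ

lemma cyc (C : Type) [Field C] [NumberField C] (p k : ℕ) [hp : Fact p.Prime]
    [IsCyclotomicExtension {p} ℚ C] (hk : 2 * k ∣ p - 1) :
    ∃ L : IntermediateField ℚ C, finrank ℚ L = k ∧ IsGalois ℚ L ∧
      ∀ x ∈ L, ∀ φ : C →+* ℂ, star (φ x) = φ x := by
  have : NeZero p := ⟨hp.out.ne_zero⟩
  have : IsGalois ℚ C := IsCyclotomicExtension.isGalois {p} ℚ C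
  let e : Gal(C/ℚ) ≃* (ZMod p)ˣ := IsCyclotomicExtension.autEquivPow C
    (Polynomial.cyclotomic.irreducible_rat (NeZero.pos p))
  have hc : Nat.card (ZMod p)ˣ = p - 1 := by
    rw [Nat.card_eq_fintype_card, ZMod.card_units]
  let H0 : Subgroup (ZMod p)ˣ := (powMonoidHom k : (ZMod p)ˣ →* (ZMod p)ˣ).range
  let H : Subgroup Gal(C/ℚ) := H0.comap e.toMonoidHom
  have hi : H.index = k := by
    rw [show H.index = H0.index from
      Subgroup.index_comap_of_surjective (f := e.toMonoidHom) _ e.surjective,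
      IsCyclic.index_powMonoidHom_range, hc]
    exact Nat.gcd_eq_right ((Dvd.intro_left 2 rfl).trans hk)
  have : H.Normal := Subgroup.Normal.comap inferInstance _
  refine ⟨fixedField H, ?_, IsGalois.of_fixedField_normal_subgroup H, fun x hx φ => ?_⟩
  · have h1 := finrank_mul_finrank ℚ (fixedField H) C
    rw [finrank_fixedField_eq_card, ← IsGalois.card_aut_eq_finrank ℚ C, ← H.index_mul_card,
      hi] at h1
    exact Nat.eq_of_mul_eq_mul_right Nat.card_pos h1
  · obtain ⟨σ, hσ⟩ := ComplexEmbedding.exists_comp_symm_eq_of_comp_eq (k := ℚ) φ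
      (ComplexEmbedding.conjugate φ) (Subsingleton.elim _ _)
    have hcj : ComplexEmbedding.IsConj φ σ.symm := hσ.symm
    have h2 : σ.symm * σ.symm = 1 := by
      ext y
      apply φ.injective
      rw [AlgEquiv.mul_apply, hcj.eq, hcj.eq, star_star]
      rfl
    have hm : σ.symm ∈ H := by
      obtain ⟨g, hg⟩ := IsCyclic.exists_monoid_generator (α := (ZMod p)ˣ)
      obtain ⟨m, hm⟩ := hg (e σ.symm)
      have ho : orderOf g = p - 1 := by
        rw [← hc]; exact orderOf_eq_card_of_forall_mem_powers hg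
      have h3 : g ^ (2 * m) = 1 := by
        rw [two_mul, pow_add]
        simp only at hm
        rw [hm, ← map_mul, h2, map_one]
      have h4 : 2 * k ∣ 2 * m := hk.trans (ho ▸ orderOf_dvd_of_pow_eq_one h3)
      obtain ⟨r, hr⟩ := Nat.dvd_of_mul_dvd_mul_left two_pos h4
      refine ⟨g ^ r, ?_⟩
      simp only at hm
      simp [← hm, hr, ← pow_mul, mul_comm]
    have := (mem_fixedField_iff H x).1 hx _ hm
    rw [← hcj.eq, this]

lemma cyc' (p k : ℕ) (hp : p.Prime) (hk : 2 * k ∣ p - 1) :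
    ∃ L : IntermediateField ℚ Qb, ∃ _ : NumberField L, finrank ℚ L = k ∧ IsGalois ℚ L ∧
      (∀ x ∈ L, x ∈ maximalRealSubfield Qb) ∧ discr L ∣ (p : ℤ) ^ (p - 2) := by
  have := Fact.mk hp
  have : NeZero p := ⟨hp.ne_zero⟩
  obtain ⟨ζ, hζ⟩ := HasEnoughRootsOfUnity.exists_primitiveRoot Qb p
  have : Algebra.IsIntegral ℚ Qb := (AlgebraicClosure.isAlgebraic ℚ).isIntegral
  let C : IntermediateField ℚ Qb := IntermediateField.adjoin ℚ {ζ}
  have : IsCyclotomicExtension {p} ℚ C := hζ.intermediateField_adjoin_isCyclotomicExtension ℚ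
  have : NumberField C := IsCyclotomicExtension.numberField {p} ℚ C
  obtain ⟨L, h1, h2, h3⟩ := cyc C p k hk
  let e := liftAlgEquiv L
  have : FiniteDimensional ℚ (lift L) := e.toLinearEquiv.finiteDimensional
  have : NumberField (lift L) := NumberField.of_module_finite ℚ _
  refine ⟨lift L, inferInstance, e.toLinearEquiv.finrank_eq.symm.trans h1,
    @IsGalois.of_algEquiv _ _ _ _ _ _ _ _ h2 e,
    ?_, ?_⟩
  · rintro _ ⟨x, hx, rfl⟩ φ
    exact h3 x hx (φ.comp C.val.toRingHom)
  · rw [← NumberField.discr_eq_discr_of_algEquiv _ e]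
    have h4 := discr_dvd_discr L C
    rw [IsCyclotomicExtension.Rat.discr_prime p C] at h4
    rcases neg_one_pow_eq_or ℤ ((p - 1) / 2) with h | h <;> rw [h] at h4
    · rw [one_mul] at h4; exact h4
    · rw [neg_one_mul, dvd_neg] at h4; exact h4

lemma prime_ex (k N : ℕ) (hk : k ≠ 0) : ∃ p : ℕ, p.Prime ∧ N < p ∧ 2 * k ∣ p - 1 := by
  obtain ⟨p, hp, h1, h2⟩ := Nat.exists_prime_gt_modEq_one (k := 2 * k) N (by omega)
  exact ⟨p, hp, h1, (Nat.modEq_iff_dvd' hp.one_le).1 h2.symm⟩

lemma nonrat (K : Type) [Field K] [NumberField K] (h : 2 ≤ finrank ℚ K) :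
    ∃ η : K, IsIntegral ℤ η ∧ η ∉ Set.range (algebraMap ℚ K) := by
  by_contra hc
  push Not at hc
  have hs : Function.Surjective (algebraMap ℚ K) := by
    intro x
    obtain ⟨a, b, hb, rfl⟩ := IsFractionRing.div_surjective (𝓞 K) x
    obtain ⟨r, hr⟩ := hc a a.isIntegral_coe
    obtain ⟨s, hs⟩ := hc b b.isIntegral_coe
    exact ⟨r / s, by rw [map_div₀, hr, hs]⟩
  have := LinearMap.finrank_le_finrank_of_surjective (f := Algebra.linearMap ℚ K) hs
  simp at this
  omega

theorem fields (d e : ℕ) (hd : 2 ≤ d) (he : 2 ≤ e) :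
    ∃ P : Polynomial ℤ, P ≠ 0 ∧ ∀ N : ℕ, ∃ (K : Type) (_ : Field K) (_ : NumberField K),
      IsTotallyReal K ∧ finrank ℚ K = d * e ∧ (N : ℤ) ≤ |discr K| ∧
      ∃ η : K, IsIntegral ℤ η ∧ Polynomial.aeval η P = 0 ∧ η ∉ Set.range (algebraMap ℚ K) := by
  have : Algebra.IsAlgebraic ℚ Qb := AlgebraicClosure.isAlgebraic ℚ
  obtain ⟨p0, hp0, -, h0⟩ := prime_ex d 0 (by omega)
  obtain ⟨F, _, F1, F2, F3, F4⟩ := cyc' p0 d hp0 h0
  obtain ⟨η, hη, hη'⟩ := nonrat F (by rw [F1]; exact hd)
  refine ⟨minpoly ℤ η, minpoly.ne_zero hη, fun N => ?_⟩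
  obtain ⟨p, hp, hN, h1⟩ := prime_ex e (max N p0) (by omega)
  obtain ⟨L, _, L1, L2, L3, L4⟩ := cyc' p e hp h1
  have hne : p0 ≠ p := by
    have := lt_of_le_of_lt (le_max_right _ _) hN
    omega
  have hco : IsCoprime (discr F) (discr L) := by
    have : IsCoprime (p0 : ℤ) (p : ℤ) := Nat.isCoprime_iff_coprime.2 ((Nat.coprime_primes hp0 hp).2 hne)
    exact (this.pow.of_isCoprime_of_dvd_left F4).of_isCoprime_of_dvd_right L4
  have fF : FiniteDimensional ℚ F := NumberField.to_finiteDimensional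
  have fL : FiniteDimensional ℚ L := NumberField.to_finiteDimensional
  have hld : F.LinearDisjoint L := by
    refine @IntermediateField.LinearDisjoint.of_inf_eq_bot _ _ _ _ _ F L F2 fF fL ?_
    have f1 : FiniteDimensional ℚ ↥(F ⊓ L) :=
      FiniteDimensional.of_injective (IntermediateField.inclusion (inf_le_left : F ⊓ L ≤ F)).toLinearMap
        (IntermediateField.inclusion_injective (inf_le_left : F ⊓ L ≤ F))
    have : NumberField ↥(F ⊓ L) := @NumberField.of_module_finite ℚ _ _ _ _ _ f1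
    have hu : IsUnit (discr ↥(F ⊓ L)) := by
      let _ : Algebra ↥(F ⊓ L) F := (IntermediateField.inclusion inf_le_left).toRingHom.toAlgebra
      let _ : Algebra ↥(F ⊓ L) L := (IntermediateField.inclusion inf_le_right).toRingHom.toAlgebra
      exact hco.isUnit_of_dvd' (discr_dvd_discr _ _) (discr_dvd_discr _ _)
    by_contra hb
    have h2 : 1 < finrank ℚ ↥(F ⊓ L) := by
      refine Nat.one_lt_iff_ne_zero_and_ne_one.mpr ⟨Module.finrank_pos.ne', fun h => hb ?_⟩
      exact IntermediateField.finrank_eq_one_iff.1 h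
    have h3 := abs_discr_gt_two h2
    rw [Int.isUnit_iff_abs_eq.1 hu] at h3
    omega
  have fK : FiniteDimensional ℚ ↥(F ⊔ L) := @IntermediateField.finiteDimensional_sup _ _ _ _ _ F L fF fL
  have : NumberField ↥(F ⊔ L) := @NumberField.of_module_finite ℚ _ _ _ _ _ fK
  refine ⟨↥(F ⊔ L), inferInstance, inferInstance, ?_, ?_, ?_, ?_⟩
  · have h5 : (F ⊔ L).toSubfield ≤ maximalRealSubfield Qb := by
      rw [IntermediateField.sup_toSubfield]
      exact sup_le F3 L3
    exact isTotallyReal_iff_le_maximalRealSubfield.2 h5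
  · exact hld.finrank_sup.trans (congrArg₂ _ F1 L1)
  · let _ : Algebra L ↥(F ⊔ L) := (IntermediateField.inclusion le_sup_right).toRingHom.toAlgebra
    have h6 : discr L ∣ discr ↥(F ⊔ L) := discr_dvd_discr _ _
    have h7 : (p : ℤ) ∣ discr L := by
      have h8 := abs_discr_gt_two (K := L) (by rw [L1]; omega)
      have h9 : (discr L).natAbs ∣ p ^ (p - 2) := by
        have := Int.natAbs_dvd_natAbs.2 L4
        simpa [Int.natAbs_pow] using this
      obtain ⟨i, -, hi⟩ := (Nat.dvd_prime_pow hp).1 h9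
      rcases i with _ | i
      · rw [Int.abs_eq_natAbs, hi] at h8; simp at h8
      · rw [← Int.dvd_natAbs, hi]; push_cast; exact dvd_pow_self _ (by omega)
    have h10 := Int.le_of_dvd (abs_pos.2 (discr_ne_zero _)) ((dvd_abs _ _).2 (h7.trans h6))
    have := lt_of_le_of_lt (le_max_left _ _) hN
    omega
  · let ι : F →+* ↥(F ⊔ L) := (IntermediateField.inclusion le_sup_left).toRingHom
    refine ⟨ι η, hη.map ι.toIntAlgHom, ?_, ?_⟩
    · have := Polynomial.aeval_algHom_apply ι.toIntAlgHom η (minpoly ℤ η)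
      rw [minpoly.aeval, map_zero] at this
      exact this
    · rintro ⟨r, hr⟩
      refine hη' ⟨r, ι.injective ?_⟩
      rw [← hr]
      simp

lemma nonconst {n : ℕ} {K : Type} [Field K] [NumberField K] [IsTotallyReal K]
    (σ : Fin n ≃ (K →+* ℝ)) {η : K} (h : η ∉ Set.range (algebraMap ℚ K)) :
    ¬ ∀ j k, σ j η = σ k η := by
  intro hc
  apply h
  have hi : IsIntegral ℚ η := Algebra.IsIntegral.isIntegral η
  rw [← RingHom.coe_range, SetLike.mem_coe, ← minpoly.natDegree_eq_one_iff]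
  have h1 := Embeddings.range_eval_eq_rootSet_minpoly K ℂ η
  have h2 : ((minpoly ℚ η).rootSet ℂ).Subsingleton := by
    rw [← h1]
    rintro _ ⟨φ, rfl⟩ _ ⟨ψ, rfl⟩
    have a := IsTotallyReal.complexEmbedding_isReal φ
    have b := IsTotallyReal.complexEmbedding_isReal ψ
    have := hc (σ.symm a.embedding) (σ.symm b.embedding)
    simp only [Equiv.apply_symm_apply] at this
    show φ η = ψ η
    rw [← a.coe_embedding_apply, ← b.coe_embedding_apply, this]
  have h3 := Polynomial.card_rootSet_eq_natDegree (K := ℂ) (minpoly.irreducible hi).separable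
    (IsAlgClosed.splits _)
  have h4 : Fintype.card ((minpoly ℚ η).rootSet ℂ) ≤ 1 :=
    Fintype.card_le_one_iff_subsingleton.2 h2.coe_sort
  have h5 := minpoly.natDegree_pos hi
  omega

end Vale.Agent.P007
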